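import Vale.Agent.P100.Main

/-! # P100: the Lane-Emden conjecture for solutions with periods -/

open MeasureTheory

namespace Vale.Agent.Results.P100.Periodic

open Vale.Agent.P134 Vale.Agent.P100

/-- (1) Let `n ≥ 3`, `p, q > 1` and `1/(p+1) + 1/(q+1) > (n-2)/n`.  Then there are no positive
`u, v ∈ C²(ℝⁿ)` with `-Δu = v^p`, `-Δv = u^q` such that `u` is periodic in `k` linearly independent
directions, where `2 k + 2 ≥ n`.
(2) For `p, q > 1` and every set `S` of coordinates of `ℝⁿ` there is a constant `C` such that for all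
positive `u, v ∈ C²(ℝⁿ)` with `-Δu ≥ v^p`, `-Δv ≥ u^q`, the integral of `u^q` over a box with half
sides `R` in the directions of `S` and `N ≥ R` in the others is at most
`C N^(n-|S|) R^(|S| - 2q(p+1)/(pq-1))`. -/
theorem result :
    (∀ (n k : ℕ) (p q : ℝ), 3 ≤ n → 1 < p → 1 < q →
      ((n : ℝ) - 2) / n < 1 / (p + 1) + 1 / (q + 1) → n ≤ 2 * k + 2 →
      ∀ u v : E n → ℝ, ContDiff ℝ 2 u → ContDiff ℝ 2 v → (∀ x, 0 < u x) → (∀ x, 0 < v x) →
      (∀ x, - lap u x = v x ^ p) → (∀ x, - lap v x = u x ^ q) →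
      ∀ w : Fin k → E n, LinearIndependent ℝ w → ¬ ∀ j x, u (x + w j) = u x) ∧
    (∀ (n : ℕ) (S : Finset (Fin n)) (p q : ℝ), 1 < p → 1 < q →
      ∃ C : ℝ, 0 < C ∧ ∀ u v : E n → ℝ, IsSuper p q u v → ∀ (c : E n) (N R : ℝ), 0 < R → R ≤ N →
      ∫ x in box c (sideS S N R), u x ^ q ≤
        C * (N ^ (n - S.card) * R ^ S.card * R ^ (-(2 * (q * (p + 1) / (p * q - 1)))))) :=
  ⟨fun _ _ _ _ hn hp hq hsub hk _ _ hu hv hu0 hv0 h1 h2 _ hw hper =>
    main hn hp hq hsub hk hu hv hu0 hv0 h1 h2 hw hper, fun _ S _ _ hp hq => est S hp hq⟩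

end Vale.Agent.Results.P100.Periodic
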